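import Vale.Agent.P133.R2.H82.Units
import Vale.Agent.P133.H832.Diag

/-!
P133 (helper82): density of certificates.
-/

open scoped ComplexOrder

namespace Vale.Agent.P133.R2.H82

open Vale.Agent.P133.R2.H307 Vale.Agent.P133.R2.H28 Vale.Agent.P133.H832

universe u

variable {D : Type u} [NonUnitalCStarAlgebra D] [PartialOrder D] [StarOrderedRing D]

/-- almost orthogonal contractions -/
theorem norm_sum_range_le {m : ℕ} {V : Fin m → D} {ε : ℝ} (hε : 0 ≤ ε) (hV : ∀ i, ‖V i‖ ≤ 1)
    (ho : ∀ i j, i ≠ j → ‖star (V i) * V j‖ ≤ ε) (hm : (m : ℝ) * m * ε ≤ 1) :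
    ‖∑ i, V i * star (V i)‖ ≤ 2 := by
  set S : D := ∑ i, V i * star (V i) with hS
  have hS0 : 0 ≤ S := Finset.sum_nonneg fun i _ => mul_star_self_nonneg _
  have hSs : star S = S := (IsSelfAdjoint.of_nonneg hS0).star_eq
  have e : S * S = ∑ i, V i * (star (V i) * V i) * star (V i) +
      ∑ i, ∑ j, (if i = j then 0 else V i * (star (V i) * V j) * star (V j)) := by
    rw [hS, Finset.sum_mul_sum, ← Finset.sum_add_distrib]
    refine Finset.sum_congr rfl fun i _ => ?_
    have : ∀ j, V i * star (V i) * (V j * star (V j)) =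
        (if i = j then V i * (star (V i) * V i) * star (V i) else 0) +
        (if i = j then 0 else V i * (star (V i) * V j) * star (V j)) := by
      intro j
      by_cases h : i = j
      · subst h; simp only [if_true, add_zero, mul_assoc]
      · simp only [if_neg h, zero_add, mul_assoc]
    rw [Finset.sum_congr rfl fun j _ => this j, Finset.sum_add_distrib]
    simp only [Finset.sum_ite_eq, Finset.mem_univ, if_true]
  have h1 : ‖∑ i, V i * (star (V i) * V i) * star (V i)‖ ≤ ‖S‖ := by
    refine CStarAlgebra.norm_le_norm_of_nonneg_of_le (Finset.sum_nonneg fun i _ => ?_)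
      (Finset.sum_le_sum fun i _ => ?_)
    · have := star_left_conjugate_nonneg (star_mul_self_nonneg (V i)) (star (V i))
      rwa [star_star] at this
    · have h := CStarAlgebra.star_right_conjugate_le_norm_smul (a := V i) (b := star (V i) * V i)
        (IsSelfAdjoint.star_mul_self _)
      refine h.trans ?_
      have h2 : ‖star (V i) * V i‖ ≤ 1 := by
        rw [CStarRing.norm_star_mul_self]
        exact mul_le_one₀ (hV i) (norm_nonneg _) (hV i)
      calc _ ≤ (1 : ℝ) • (V i * star (V i)) :=
            smul_le_smul_of_nonneg_right h2 (mul_star_self_nonneg _)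
        _ = _ := one_smul _ _
  have h2 : ‖∑ i, ∑ j, (if i = j then 0 else V i * (star (V i) * V j) * star (V j))‖ ≤ 1 := by
    have : ∀ i : Fin m, ‖∑ j, (if i = j then 0 else V i * (star (V i) * V j) * star (V j))‖ ≤
        m * ε := by
      intro i
      refine (norm_sum_le_of_le (f := fun j => if i = j then 0 else
        V i * (star (V i) * V j) * star (V j)) _ (n := fun _ => ε) fun j _ => ?_).trans ?_
      · by_cases h : i = j
        · simp only [if_pos h, norm_zero]; exact hε
        · simp only [if_neg h]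
          calc _ ≤ ‖V i‖ * ‖star (V i) * V j‖ * ‖star (V j)‖ :=
                (norm_mul_le _ _).trans (by gcongr; exact norm_mul_le _ _)
            _ ≤ 1 * ε * 1 := by
                gcongr
                · exact hV i
                · exact ho i j h
                · rw [norm_star]; exact hV j
            _ = ε := by ring
      · rw [Finset.sum_const, Finset.card_univ, Fintype.card_fin, nsmul_eq_mul]
    refine (norm_sum_le_of_le _ fun i _ => this i).trans ?_
    rw [Finset.sum_const, Finset.card_univ, Fintype.card_fin, nsmul_eq_mul, ← mul_assoc]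
    exact hm
  have h3 : ‖S‖ * ‖S‖ ≤ ‖S‖ + 1 := by
    have h4 := CStarRing.norm_star_mul_self (x := S)
    rw [hSs] at h4
    rw [← h4, e]
    exact (norm_add_le _ _).trans (add_le_add h1 h2)
  by_contra hc
  push Not at hc
  nlinarith

theorem norm_sum_conj_pos {m : ℕ} {c y : Fin m → D} {K : ℝ} (hK : 0 ≤ K)
    (hc : ∀ i, IsSelfAdjoint (c i)) (hy : ∀ i, 0 ≤ y i) (hyn : ∀ i, ‖y i‖ ≤ K)
    (hs : ‖∑ i, c i * c i‖ ≤ 1) : ‖∑ i, c i * y i * c i‖ ≤ K := by
  have hcc : ∀ i, 0 ≤ c i * c i := fun i => by
    have := star_mul_self_nonneg (c i)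
    rwa [(hc i).star_eq] at this
  have h1 : ∑ i, c i * y i * c i ≤ K • ∑ i, c i * c i := by
    rw [Finset.smul_sum]
    refine Finset.sum_le_sum fun i _ => ?_
    have h := CStarAlgebra.star_left_conjugate_le_norm_smul (a := c i) (b := y i)
      (IsSelfAdjoint.of_nonneg (hy i))
    rw [(hc i).star_eq] at h
    exact h.trans (smul_le_smul_of_nonneg_right (hyn i) (hcc i))
  have h2 : 0 ≤ ∑ i, c i * y i * c i := Finset.sum_nonneg fun i _ => by
    have := star_left_conjugate_nonneg (hy i) (c i)
    rwa [(hc i).star_eq] at this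
  refine (CStarAlgebra.norm_le_norm_of_nonneg_of_le h2 h1).trans ?_
  rw [norm_smul, Real.norm_of_nonneg hK]
  exact mul_le_of_le_one_right hK hs

/-- conjugates by a family with small sum of squares -/
theorem norm_sum_conj_le {m : ℕ} {c y : Fin m → D} {K : ℝ} (hK : 0 ≤ K)
    (hc : ∀ i, IsSelfAdjoint (c i)) (hy : ∀ i, IsSelfAdjoint (y i)) (hyn : ∀ i, ‖y i‖ ≤ K)
    (hs : ‖∑ i, c i * c i‖ ≤ 1) : ‖∑ i, c i * y i * c i‖ ≤ 2 * K := by
  have hq : ∀ i, ∀ t ∈ quasispectrum ℝ (y i), |t| ≤ K := fun i t ht => by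
    have := norm_apply_le_norm_cfcₙ (fun x : ℝ => x) (y i) ht
    rw [cfcₙ_id' ℝ (y i)] at this
    exact this.trans (hyn i)
  set p : Fin m → D := fun i => cfcₙ (fun t : ℝ => max t 0) (y i) with hp
  set q : Fin m → D := fun i => cfcₙ (fun t : ℝ => max (-t) 0) (y i) with hq'
  have hp0 : ∀ i, 0 ≤ p i := fun i => cfcₙ_nonneg fun t _ => le_max_right _ _
  have hq0 : ∀ i, 0 ≤ q i := fun i => cfcₙ_nonneg fun t _ => le_max_right _ _
  have hpn : ∀ i, ‖p i‖ ≤ K := fun i => norm_cfcₙ_le fun t ht => by
    rw [Real.norm_of_nonneg (le_max_right _ _)]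
    exact max_le ((le_abs_self t).trans (hq i t ht)) hK
  have hqn : ∀ i, ‖q i‖ ≤ K := fun i => norm_cfcₙ_le fun t ht => by
    rw [Real.norm_of_nonneg (le_max_right _ _)]
    exact max_le ((neg_le_abs t).trans (hq i t ht)) hK
  have e : ∀ i, y i = p i - q i := fun i => by
    have c1 : ContinuousOn (fun t : ℝ => max t 0) (quasispectrum ℝ (y i)) := by fun_prop
    have c2 : ContinuousOn (fun t : ℝ => max (-t) 0) (quasispectrum ℝ (y i)) := by fun_prop
    simp only [hp, hq']
    rw [← cfcₙ_sub (fun t : ℝ => max t 0) (fun t : ℝ => max (-t) 0) (y i) c1 (by simp) c2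
      (by simp)]
    conv_lhs => rw [← cfcₙ_id' ℝ (y i)]
    congr 1
    funext t
    rcases le_total t 0 with h | h
    · rw [max_eq_right h, max_eq_left (by linarith)]; ring
    · rw [max_eq_left h, max_eq_right (by linarith)]; ring
  have e2 : ∑ i, c i * y i * c i = ∑ i, c i * p i * c i - ∑ i, c i * q i * c i := by
    rw [← Finset.sum_sub_distrib]
    refine Finset.sum_congr rfl fun i _ => ?_
    rw [e i, mul_sub, sub_mul]
  rw [e2]
  refine (norm_sub_le _ _).trans ?_
  have := norm_sum_conj_pos hK hc hp0 hpn hs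
  have := norm_sum_conj_pos hK hc hq0 hqn hs
  linarith

omit [PartialOrder D] [StarOrderedRing D] in
theorem conj_Z {m : ℕ} {P Q x c : Fin m → D} {ε : ℝ} (hε : 0 ≤ ε)
    (hcs : ∀ i, IsSelfAdjoint (c i)) (hxs : ∀ i, IsSelfAdjoint (x i))
    (hc : ∀ i, ‖c i‖ ≤ 1) (hxc : ∀ i, x i * c i = c i)
    (hPn : ∀ i, ‖P i‖ ≤ 1) (hQn : ∀ i, ‖Q i‖ ≤ 1)
    (hP : ∀ i j, ‖star (P i) * P j - (if i = j then x i * x i else 0)‖ ≤ ε)
    (hPQ : ∀ i j, ‖star (P i) * Q j‖ ≤ ε) (i : Fin m) :
    ‖c i * (star (P i) * (∑ j, P j * star (P j) - ∑ j, Q j * star (Q j)) * P i) * c i -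
      c i * c i‖ ≤ (2 * m + 1) * ε := by
  set Z : D := ∑ j, P j * star (P j) - ∑ j, Q j * star (Q j) with hZ
  have hcx : c i * x i = c i := by
    have := congrArg star (hxc i)
    rwa [star_mul, (hxs i).star_eq, (hcs i).star_eq] at this
  have h1 : ‖star (P i) * Z - x i * x i * star (P i)‖ ≤ 2 * m * ε := by
    have e : star (P i) * Z - x i * x i * star (P i) =
        ∑ j, (star (P i) * P j - (if i = j then x i * x i else 0)) * star (P j) -
          ∑ j, star (P i) * Q j * star (Q j) := by
      have e1 : ∑ j, (star (P i) * P j - (if i = j then x i * x i else 0)) * star (P j) =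
          ∑ j, star (P i) * P j * star (P j) - x i * x i * star (P i) := by
        rw [Finset.sum_congr rfl fun j _ => sub_mul _ _ _, Finset.sum_sub_distrib]
        congr 1
        simp only [ite_mul, zero_mul, Finset.sum_ite_eq, Finset.mem_univ, if_true]
      rw [e1, hZ, mul_sub, Finset.mul_sum, Finset.mul_sum]
      simp only [mul_assoc]
      abel
    rw [e]
    have q1 : ‖∑ j, (star (P i) * P j - (if i = j then x i * x i else 0)) * star (P j)‖ ≤
        m * ε := by
      refine (norm_sum_le_of_le _ (n := fun _ => ε) fun j _ => ?_).trans ?_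
      · refine (norm_mul_le _ _).trans ?_
        rw [norm_star]
        exact (mul_le_of_le_one_right (norm_nonneg _) (hPn j)).trans (hP i j)
      · rw [Finset.sum_const, Finset.card_univ, Fintype.card_fin, nsmul_eq_mul]
    have q2 : ‖∑ j, star (P i) * Q j * star (Q j)‖ ≤ m * ε := by
      refine (norm_sum_le_of_le _ (n := fun _ => ε) fun j _ => ?_).trans ?_
      · refine (norm_mul_le _ _).trans ?_
        rw [norm_star]
        exact (mul_le_of_le_one_right (norm_nonneg _) (hQn j)).trans (hPQ i j)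
      · rw [Finset.sum_const, Finset.card_univ, Fintype.card_fin, nsmul_eq_mul]
    refine (norm_sub_le _ _).trans ?_
    linarith
  have h2 : ‖star (P i) * P i - x i * x i‖ ≤ ε := by
    have := hP i i
    rwa [if_pos rfl] at this
  have e1 : c i * (x i * x i * star (P i)) * (P i * c i) = c i * (star (P i) * P i) * c i := by
    calc _ = ((c i * x i) * x i) * (star (P i) * P i) * c i := by simp only [mul_assoc]
      _ = _ := by rw [hcx, hcx]
  have e2 : c i * (x i * x i) * c i = c i * c i := by
    rw [← mul_assoc, hcx, hcx]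
  have gen : ∀ W : D, c i * (star (P i) * W * P i) * c i - c i * c i =
      c i * (star (P i) * W - x i * x i * star (P i)) * (P i * c i) +
        c i * (star (P i) * P i - x i * x i) * c i := by
    intro W
    rw [mul_sub (c i) (star (P i) * W), sub_mul, e1, mul_sub (c i) (star (P i) * P i), sub_mul, e2]
    simp only [mul_assoc]
    abel
  have e := gen Z
  rw [e]
  have q1 : ‖c i * (star (P i) * Z - x i * x i * star (P i)) * (P i * c i)‖ ≤ 2 * m * ε := by
    calc _ ≤ ‖c i‖ * ‖star (P i) * Z - x i * x i * star (P i)‖ * (‖P i‖ * ‖c i‖) :=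
          (norm_mul_le _ _).trans (by gcongr <;> exact norm_mul_le _ _)
      _ ≤ 1 * (2 * m * ε) * (1 * 1) := by
          gcongr
          · exact hc i
          · exact hPn i
          · exact hc i
      _ = _ := by ring
  have q2 : ‖c i * (star (P i) * P i - x i * x i) * c i‖ ≤ ε := by
    calc _ ≤ ‖c i‖ * ‖star (P i) * P i - x i * x i‖ * ‖c i‖ :=
          (norm_mul_le _ _).trans (by gcongr; exact norm_mul_le _ _)
      _ ≤ 1 * ε * 1 := by
          gcongr
          · exact hc i
          · exact hc i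
      _ = _ := by ring
  refine (norm_add_le _ _).trans ?_
  linarith

theorem exists_eps {A B C E : ℝ} {b1 b2 b3 b4 : ℝ} (hA : 0 ≤ A) (hB : 0 ≤ B) (hC : 0 ≤ C)
    (hE : 0 ≤ E) (h1 : 0 < b1) (h2 : 0 < b2) (h3 : 0 < b3) (h4 : 0 < b4) :
    ∃ ε : ℝ, 0 < ε ∧ A * ε < b1 ∧ B * ε < b2 ∧ C * ε < b3 ∧ E * ε < b4 := by
  set ε : ℝ := min (min (b1 / (A + 1)) (b2 / (B + 1))) (min (b3 / (C + 1)) (b4 / (E + 1)))
    with hε
  have key : ∀ A b : ℝ, 0 ≤ A → 0 < b → ε ≤ b / (A + 1) → A * ε < b := by
    intro A b hA hb h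
    calc A * ε ≤ A * (b / (A + 1)) := by gcongr
      _ < b := by
        rw [mul_div_assoc', div_lt_iff₀ (by linarith)]
        nlinarith
  refine ⟨ε, ?_, key A b1 hA h1 ?_, key B b2 hB h2 ?_, key C b3 hC h3 ?_, key E b4 hE h4 ?_⟩
  · exact lt_min (lt_min (by positivity) (by positivity)) (lt_min (by positivity) (by positivity))
  · exact (min_le_left _ _).trans (min_le_left _ _)
  · exact (min_le_left _ _).trans (min_le_right _ _)
  · exact (min_le_right _ _).trans (min_le_left _ _)
  · exact (min_le_right _ _).trans (min_le_right _ _)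

omit [PartialOrder D] [StarOrderedRing D] in
theorem conj_w {a T E V c v : D} (hT : IsSelfAdjoint T) (hE : IsSelfAdjoint E)
    (hc : IsSelfAdjoint c) (hv : IsSelfAdjoint v) (haT : a * T = E) (hTa : T * a = E)
    (hV : E * V = V) : (∀ y : D, star (T * (V * (c * v))) * (a * y * a) * (T * (V * (c * v))) =
      v * (c * (star V * y * V) * c) * v) ∧
    star (T * (V * (c * v))) * (a * a) * (T * (V * (c * v))) =
      v * (c * (star V * V) * c) * v := by
  have hV' : star V * E = star V := by
    have := congrArg star hV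
    rwa [star_mul, hE.star_eq] at this
  have e1 : star (T * (V * (c * v))) = v * (c * (star V * T)) := by
    rw [star_mul, star_mul, star_mul, hT.star_eq, hc.star_eq, hv.star_eq]
    simp only [mul_assoc]
  constructor
  · intro y
    rw [e1]
    calc v * (c * (star V * T)) * (a * y * a) * (T * (V * (c * v))) =
        v * (c * (star V * (T * a)) * y * ((a * T) * V) * c) * v := by simp only [mul_assoc]
      _ = _ := by rw [haT, hTa, hV, hV']; simp only [mul_assoc]
  · rw [e1]
    calc v * (c * (star V * T)) * (a * a) * (T * (V * (c * v))) =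
        v * (c * (star V * (T * a)) * ((a * T) * V) * c) * v := by simp only [mul_assoc]
      _ = _ := by rw [haT, hTa, hV, hV']; simp only [mul_assoc]

omit [PartialOrder D] [StarOrderedRing D] in
theorem norm_vcv {v y : D} (nv : ‖v‖ ≤ 1) : ‖v * y * v‖ ≤ ‖y‖ := by
  calc _ ≤ ‖v‖ * ‖y‖ * ‖v‖ := (norm_mul_le _ _).trans (by gcongr; exact norm_mul_le _ _)
    _ ≤ 1 * ‖y‖ * 1 := by gcongr
    _ = _ := by ring

theorem dense_of_diag (hD : Diag D) {a : D} (ha : 0 ≤ a) {δ : ℝ} (hδ : 0 < δ) {d : D}
    (hd : d ∈ herS a) {ρ : ℝ} (hρ : 0 < ρ) {M : ℝ} (hM : 0 < M) :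
    ∃ z ∈ herS a, ‖z‖ ≤ ρ ∧ ∃ (n : ℕ) (w w' : Fin n → D) (κ : ℝ), Cert a δ (d + z) M κ w w' := by
  have hsa : IsSelfAdjoint a := IsSelfAdjoint.of_nonneg ha
  obtain ⟨E2, E1, E0, T, v, b, h2, h1, h0, hT, hv, hb, h21, h10, hEb, hbE, hEv, hvv, haT, n1, n0,
    nv, hbd⟩ := exists_cut ha hδ hd (half_pos hρ)
  set r : ℝ := ρ / 8 with hr
  have hr0 : 0 < r := by positivity
  set κ : ℝ := r / 2 with hκ
  have hκ0 : 0 < κ := by positivity
  set η : ℝ := κ / 32 with hη
  have hη0 : 0 < η := by positivity
  obtain ⟨m, x, c, s, hxs, hcs, hxc, hx, hc, hxb, hcc, hE2⟩ :=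
    exists_pieces hb h0 h1 n0 n1 h10 hEb hbE hη0
  have hTa : T * a = E2 := by
    have := congrArg star haT
    rwa [star_mul, h2.star_eq, hT.star_eq, hsa.star_eq] at this
  have hE2x := hE2 E2 h2 h21
  obtain ⟨ε, hε, e1, e2, e3, e4⟩ := exists_eps (A := m * m) (B := M * (m * 2))
    (C := (∑ i, |s i|) * 2) (E := r * (m * (2 * (2 * m + 1)))) (b1 := 1) (b2 := κ) (b3 := κ / 4)
    (b4 := κ / 4) (by positivity) (by positivity)
    (mul_nonneg (Finset.sum_nonneg fun i _ => abs_nonneg _) (by norm_num)) (by positivity)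
    one_pos hκ0 (by positivity) (by positivity)
  obtain ⟨dd, hd1, hdd⟩ := hD (m + m) (Fin.append x x) ε hε
  set P : Fin m → D := fun i => x i * dd (Fin.castAdd m i) with hP
  set Q : Fin m → D := fun i => x i * dd (Fin.natAdd m i) with hQ
  have hPn : ∀ i, ‖P i‖ ≤ 1 := fun i =>
    (norm_mul_le _ _).trans (mul_le_one₀ (hx i) (norm_nonneg _) (hd1 _))
  have hQn : ∀ i, ‖Q i‖ ≤ 1 := fun i =>
    (norm_mul_le _ _).trans (mul_le_one₀ (hx i) (norm_nonneg _) (hd1 _))
  have hPP : ∀ i j, ‖star (P i) * P j - (if i = j then x i * x i else 0)‖ ≤ ε := by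
    intro i j
    have h := (hdd (Fin.castAdd m i) (Fin.castAdd m j)).le
    simp only [Fin.append_left, Fin.castAdd_inj, (hxs i).star_eq] at h
    exact h
  have hQQ : ∀ i j, ‖star (Q i) * Q j - (if i = j then x i * x i else 0)‖ ≤ ε := by
    intro i j
    have h := (hdd (Fin.natAdd m i) (Fin.natAdd m j)).le
    simp only [Fin.append_right, Fin.natAdd_inj, (hxs i).star_eq] at h
    exact h
  have hPQ : ∀ i j, ‖star (P i) * Q j‖ ≤ ε := by
    intro i j
    have h := (hdd (Fin.castAdd m i) (Fin.natAdd m j)).le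
    have hne : Fin.castAdd m i ≠ Fin.natAdd m j := by
      intro h
      have := congrArg Fin.val h
      simp only [Fin.val_castAdd, Fin.val_natAdd] at this
      omega
    simp only [Fin.append_left, Fin.append_right, if_neg hne, sub_zero] at h
    exact h
  have hQP : ∀ i j, ‖star (Q i) * P j‖ ≤ ε := by
    intro i j
    have := hPQ j i
    rw [← norm_star, star_mul, star_star] at this
    exact this
  set Z : D := ∑ j, P j * star (P j) - ∑ j, Q j * star (Q j) with hZ
  have hZs : IsSelfAdjoint Z := by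
    rw [isSelfAdjoint_iff, hZ, star_sub, star_sum, star_sum]
    simp only [star_mul, star_star]
  have hZn : ‖Z‖ ≤ 4 := by
    have q1 := norm_sum_range_le hε.le hPn (fun i j hij => by
      have := hPP i j; rwa [if_neg hij, sub_zero] at this) e1.le
    have q2 := norm_sum_range_le hε.le hQn (fun i j hij => by
      have := hQQ i j; rwa [if_neg hij, sub_zero] at this) e1.le
    refine (norm_sub_le _ _).trans ?_
    linarith
  have hPPQ : ∀ i, ‖star (P i) * P i - star (Q i) * Q i‖ ≤ 2 * ε := by
    intro i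
    have q1 := hPP i i
    have q2 := hQQ i i
    rw [if_pos rfl] at q1 q2
    have q3 : star (P i) * P i - star (Q i) * Q i =
        (star (P i) * P i - x i * x i) - (star (Q i) * Q i - x i * x i) := by abel
    rw [q3]
    refine (norm_sub_le _ _).trans ?_
    linarith
  have hEP : ∀ i, E2 * P i = P i := fun i => by
    simp only [hP]; rw [← mul_assoc, hE2x]
  have hEQ : ∀ i, E2 * Q i = Q i := fun i => by
    simp only [hQ]; rw [← mul_assoc, hE2x]
  have hEZ : E2 * Z = Z := by
    rw [hZ, mul_sub, Finset.mul_sum, Finset.mul_sum]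
    simp only [← mul_assoc, hEP, hEQ]
  have hrZ : r • Z ∈ herS a := Submodule.smul_mem _ _ (mem_herS ha h2 hT hZs haT hEZ)
  have hE2b : E2 * b = b := by
    have hE1b : E1 * b = b := by
      calc E1 * b = E1 * (E0 * b) := by rw [hEb]
        _ = b := by rw [← mul_assoc, h10, hEb]
    calc E2 * b = E2 * (E1 * b) := by rw [hE1b]
      _ = b := by rw [← mul_assoc, h21, hE1b]
  have hbm : b ∈ herS a := mem_herS ha h2 hT hb haT hE2b
  refine ⟨(b - d) + r • Z, Submodule.add_mem _ (Submodule.sub_mem _ hbm hd) hrZ, ?_, m,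
    fun i => T * (P i * (c i * v)), fun i => T * (Q i * (c i * v)), κ, hκ0, ?_, ?_⟩
  · refine (norm_add_le _ _).trans ?_
    rw [norm_smul, Real.norm_of_nonneg hr0.le]
    have : r * ‖Z‖ ≤ r * 4 := by gcongr
    linarith
  · have f1 : ∀ i, star (T * (P i * (c i * v))) * (a * a) * (T * (P i * (c i * v))) -
        star (T * (Q i * (c i * v))) * (a * a) * (T * (Q i * (c i * v))) =
          v * (c i * (star (P i) * P i - star (Q i) * Q i) * c i) * v := by
      intro i
      rw [(conj_w hT h2 (hcs i) hv haT hTa (hEP i)).2, (conj_w hT h2 (hcs i) hv haT hTa (hEQ i)).2]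
      noncomm_ring
    have f2 : ∀ i, ‖v * (c i * (star (P i) * P i - star (Q i) * Q i) * c i) * v‖ ≤ 2 * ε :=
      fun i => (norm_vcv nv).trans ((norm_vcv (hc i)).trans (hPPQ i))
    show M * ‖∑ i, (star (T * (P i * (c i * v))) * (a * a) * (T * (P i * (c i * v))) -
        star (T * (Q i * (c i * v))) * (a * a) * (T * (Q i * (c i * v))))‖ < κ
    rw [Finset.sum_congr rfl fun i _ => f1 i]
    have f3 := norm_sum_le_of_le Finset.univ (fun i _ => f2 i)
    rw [Finset.sum_const, Finset.card_univ, Fintype.card_fin, nsmul_eq_mul] at f3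
    calc _ ≤ M * (m * (2 * ε)) := by gcongr
      _ = M * (m * 2) * ε := by ring
      _ < κ := e2
  · have f0 : d + (b - d + r • Z) = b + r • Z := by abel
    show ‖∑ i, (star (T * (P i * (c i * v))) * (a * (d + (b - d + r • Z)) * a) *
        (T * (P i * (c i * v))) - star (T * (Q i * (c i * v))) * (a * (d + (b - d + r • Z)) * a) *
        (T * (Q i * (c i * v)))) - (4 * κ) • ramp δ a‖ < κ
    rw [f0]
    set R : Fin m → D := fun i => x i * (b * x i) - s i • (x i * x i) with hR
    set y : Fin m → D := fun i => star (dd (Fin.castAdd m i)) * R i * dd (Fin.castAdd m i) -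
      star (dd (Fin.natAdd m i)) * R i * dd (Fin.natAdd m i) with hy
    have hRs : ∀ i, IsSelfAdjoint (R i) := fun i => by
      rw [isSelfAdjoint_iff]
      simp only [hR, star_sub, star_mul, star_smul, star_trivial, (hxs i).star_eq, hb.star_eq,
        mul_assoc]
    have hys : ∀ i, IsSelfAdjoint (y i) := fun i => by
      rw [isSelfAdjoint_iff]
      simp only [hy, star_sub, star_mul, star_star, (hRs i).star_eq, mul_assoc]
    have hdn : ∀ k i, ‖star (dd k) * R i * dd k‖ ≤ 2 * η := fun k i => by
      calc _ ≤ ‖star (dd k)‖ * ‖R i‖ * ‖dd k‖ :=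
            (norm_mul_le _ _).trans (by gcongr; exact norm_mul_le _ _)
        _ ≤ 1 * (2 * η) * 1 := by
            gcongr
            · rw [norm_star]; exact hd1 k
            · exact hxb i
            · exact hd1 k
        _ = 2 * η := by ring
    have hyn : ∀ i, ‖y i‖ ≤ 4 * η := fun i => by
      refine (norm_sub_le _ _).trans ?_
      have := hdn (Fin.castAdd m i) i
      have := hdn (Fin.natAdd m i) i
      linarith
    have hccn : ‖∑ i, c i * c i‖ ≤ 1 := by
      rw [hcc]; exact (norm_mul_le _ _).trans (mul_le_one₀ n0 (norm_nonneg _) n0)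
    have g1 : ‖∑ i, c i * y i * c i‖ ≤ 2 * (4 * η) :=
      norm_sum_conj_le (by positivity) hcs hys hyn hccn
    have g2 : ‖∑ i, s i • (c i * (star (P i) * P i - star (Q i) * Q i) * c i)‖ ≤
        (∑ i, |s i|) * 2 * ε := by
      rw [Finset.sum_mul, Finset.sum_mul]
      refine norm_sum_le_of_le _ fun i _ => ?_
      rw [norm_smul, Real.norm_eq_abs, mul_assoc |s i| 2 ε]
      gcongr
      exact (norm_vcv (hc i)).trans (hPPQ i)
    have g3 : ∀ i, ‖r • ((c i * (star (P i) * Z * P i) * c i - c i * c i) -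
        (c i * (star (Q i) * Z * Q i) * c i + c i * c i))‖ ≤ r * (2 * (2 * m + 1)) * ε := by
      intro i
      have k1 := conj_Z hε.le hcs hxs hc hxc hPn hQn hPP hPQ i
      have k2 := conj_Z hε.le hcs hxs hc hxc hQn hPn hQQ hQP i
      have k3 : c i * (star (Q i) * (∑ j, Q j * star (Q j) - ∑ j, P j * star (P j)) * Q i) * c i -
          c i * c i = -(c i * (star (Q i) * Z * Q i) * c i + c i * c i) := by
        have : ∑ j, Q j * star (Q j) - ∑ j, P j * star (P j) = - Z := by rw [hZ]; abel
        rw [this]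
        noncomm_ring
      rw [k3, norm_neg] at k2
      rw [norm_smul, Real.norm_of_nonneg hr0.le, mul_assoc r]
      gcongr
      refine (norm_sub_le _ _).trans ?_
      linarith
    have g4 := norm_sum_le_of_le Finset.univ (fun i _ => g3 i)
    rw [Finset.sum_const, Finset.card_univ, Fintype.card_fin, nsmul_eq_mul] at g4
    have hE0v : v * E0 = v := by
      have := congrArg star hEv
      rwa [star_mul, h0.star_eq, hv.star_eq] at this
    have hramp : (4 * κ) • ramp δ a = v * ((2 * r) • ∑ i, c i * c i) * v := by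
      rw [hcc, mul_smul_comm, smul_mul_assoc, ← mul_assoc, hE0v, mul_assoc, hEv, hvv]
      congr 1
      rw [hκ]; ring
    have f1 : ∀ i, star (T * (P i * (c i * v))) * (a * (b + r • Z) * a) * (T * (P i * (c i * v))) -
        star (T * (Q i * (c i * v))) * (a * (b + r • Z) * a) * (T * (Q i * (c i * v))) =
          v * (s i • (c i * (star (P i) * P i - star (Q i) * Q i) * c i) + c i * y i * c i +
            r • ((c i * (star (P i) * Z * P i) * c i - c i * c i) -
              (c i * (star (Q i) * Z * Q i) * c i + c i * c i)) + (2 * r) • (c i * c i)) * v := by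
      intro i
      rw [(conj_w hT h2 (hcs i) hv haT hTa (hEP i)).1, (conj_w hT h2 (hcs i) hv haT hTa (hEQ i)).1,
        ← sub_mul, ← mul_sub]
      congr 2
      have hbP : ∀ k, star (x i * dd k) * b * (x i * dd k) =
          s i • (star (x i * dd k) * (x i * dd k)) + star (dd k) * R i * dd k := by
        intro k
        simp only [hR, star_mul, (hxs i).star_eq]
        rw [mul_sub, sub_mul, mul_smul_comm, smul_mul_assoc]
        simp only [mul_assoc]
        abel
      have hbP1 : star (P i) * b * P i = s i • (star (P i) * P i) +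
          star (dd (Fin.castAdd m i)) * R i * dd (Fin.castAdd m i) := hbP _
      have hbQ1 : star (Q i) * b * Q i = s i • (star (Q i) * Q i) +
          star (dd (Fin.natAdd m i)) * R i * dd (Fin.natAdd m i) := hbP _
      have t1 : star (P i) * (b + r • Z) * P i = star (P i) * b * P i +
          r • (star (P i) * Z * P i) := by
        rw [mul_add, add_mul, mul_smul_comm, smul_mul_assoc]
      have t2 : star (Q i) * (b + r • Z) * Q i = star (Q i) * b * Q i +
          r • (star (Q i) * Z * Q i) := by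
        rw [mul_add, add_mul, mul_smul_comm, smul_mul_assoc]
      rw [t1, t2, hbP1, hbQ1]
      simp only [hy, mul_add, add_mul, mul_sub, sub_mul, smul_add, smul_sub, mul_smul_comm,
        smul_mul_assoc, two_mul, add_smul]
      abel
    rw [Finset.sum_congr rfl fun i _ => f1 i, hramp, ← Finset.sum_mul, ← Finset.mul_sum, ← sub_mul,
      ← mul_sub]
    refine lt_of_le_of_lt (norm_vcv nv) ?_
    rw [Finset.sum_add_distrib, Finset.sum_add_distrib, Finset.sum_add_distrib, Finset.smul_sum,
      add_sub_cancel_right]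
    refine lt_of_le_of_lt ((norm_add_le _ _).trans (add_le_add ((norm_add_le _ _).trans
      (add_le_add g2 g1)) g4)) ?_
    have : (m : ℝ) * (r * (2 * (2 * m + 1)) * ε) = r * (m * (2 * (2 * m + 1))) * ε := by ring
    rw [this]
    have : 2 * (4 * η) = κ / 4 := by rw [hη]; ring
    linarith

theorem specDense : SpecDense.{u} := by
  intro D _ _ _ hPI a ha δ hδ d hd ρ hρ M hM
  exact dense_of_diag (diag_of_eltPI D (eltPI_of D hPI)) ha hδ hd hρ hM

end Vale.Agent.P133.R2.H82
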