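import Vale.Agent.P133.R2.H307.Spec2
import Mathlib.Analysis.CStarAlgebra.ContinuousFunctionalCalculus.Range
import Mathlib.Analysis.CStarAlgebra.ContinuousFunctionalCalculus.Isometric
import Mathlib.Analysis.CStarAlgebra.ContinuousFunctionalCalculus.Order

/-!
P133 (helper82): the functional calculus of `b` times a local unit, and exact partitions of unity.
-/

open scoped ComplexOrder

namespace Vale.Agent.P133.R2.H82

universe u

variable {D : Type u} [NonUnitalCStarAlgebra D] [PartialOrder D] [StarOrderedRing D]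

omit [PartialOrder D] [StarOrderedRing D] in
theorem unit_cfc {b F : D} (hF : IsSelfAdjoint F) (h1 : F * b = b) (h2 : b * F = b)
    (f : ℝ → ℝ) : F * cfcₙ f b = cfcₙ f b ∧ cfcₙ f b * F = cfcₙ f b := by
  let s : NonUnitalStarSubalgebra ℝ D :=
    { carrier := {y | F * y = y ∧ y * F = y}
      add_mem' := by
        rintro x y ⟨hx, hx'⟩ ⟨hy, hy'⟩
        exact ⟨by rw [mul_add, hx, hy], by rw [add_mul, hx', hy']⟩
      zero_mem' := ⟨mul_zero _, zero_mul _⟩
      mul_mem' := by
        rintro x y ⟨hx, hx'⟩ ⟨hy, hy'⟩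
        exact ⟨by rw [← mul_assoc, hx], by rw [mul_assoc, hy']⟩
      smul_mem' := by
        rintro c x ⟨hx, hx'⟩
        exact ⟨by rw [mul_smul_comm, hx], by rw [smul_mul_assoc, hx']⟩
      star_mem' := by
        rintro x ⟨hx, hx'⟩
        refine ⟨?_, ?_⟩
        · have := congrArg star hx'
          rwa [star_mul, hF.star_eq] at this
        · have := congrArg star hx
          rwa [star_mul, hF.star_eq] at this }
  have hs : IsClosed (s : Set D) :=
    (isClosed_eq (f := fun y : D => F * y) (g := fun y => y) (by fun_prop) (by fun_prop)).inter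
      (isClosed_eq (f := fun y : D => y * F) (g := fun y => y) (by fun_prop) (by fun_prop))
  exact NonUnitalStarAlgebra.elemental.le_of_mem hs ⟨h1, h2⟩ (cfcₙ_mem_elemental f b)

/-- the element `f(b) E` of `D`, for a local unit `E` of `b` -/
noncomputable def Phi (b E : D) (f : ℝ → ℝ) : D := f 0 • E + cfcₙ (fun t => f t - f 0) b

omit [PartialOrder D] [StarOrderedRing D] in
theorem Phi_sa {b E : D} (hE : IsSelfAdjoint E) (f : ℝ → ℝ) : IsSelfAdjoint (Phi b E f) :=
  ((IsSelfAdjoint.all (f 0)).smul hE).add (cfcₙ_predicate _ _)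

omit [PartialOrder D] [StarOrderedRing D] in
theorem Phi_mul {b E F : D} (hE : IsSelfAdjoint E)
    (hF : IsSelfAdjoint F) (hE1 : E * b = b) (hE2 : b * E = b) (hF1 : F * b = b)
    (hF2 : b * F = b) {f g : ℝ → ℝ} (hf : Continuous f) (hg : Continuous g) :
    Phi b F f * Phi b E g = Phi b (F * E) (fun t => f t * g t) := by
  have h1 : cfcₙ (fun t => f t * g t - f 0 * g 0) b = g 0 • cfcₙ (fun t => f t - f 0) b +
      f 0 • cfcₙ (fun t => g t - g 0) b +
        cfcₙ (fun t => f t - f 0) b * cfcₙ (fun t => g t - g 0) b := by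
    have e : (fun t => f t * g t - f 0 * g 0) = fun t => (g 0 * (f t - f 0) +
        f 0 * (g t - g 0)) + (f t - f 0) * (g t - g 0) := by funext t; ring
    have c1 : ContinuousOn (fun t => f t - f 0) (quasispectrum ℝ b) := by fun_prop
    have c2 : ContinuousOn (fun t => g t - g 0) (quasispectrum ℝ b) := by fun_prop
    have c3 : ContinuousOn (fun t => g 0 * (f t - f 0)) (quasispectrum ℝ b) := by fun_prop
    have c4 : ContinuousOn (fun t => f 0 * (g t - g 0)) (quasispectrum ℝ b) := by fun_prop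
    have c5 : ContinuousOn (fun t => g 0 * (f t - f 0) + f 0 * (g t - g 0))
      (quasispectrum ℝ b) := by fun_prop
    have c6 : ContinuousOn (fun t => (f t - f 0) * (g t - g 0)) (quasispectrum ℝ b) := by fun_prop
    rw [e, cfcₙ_add (fun t => g 0 * (f t - f 0) + f 0 * (g t - g 0))
      (fun t => (f t - f 0) * (g t - g 0)) b c5 (by simp) c6 (by simp),
      cfcₙ_add (fun t => g 0 * (f t - f 0)) (fun t => f 0 * (g t - g 0)) b c3 (by simp) c4
        (by simp),
      cfcₙ_const_mul (g 0) (fun t => f t - f 0) b c1 (by simp),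
      cfcₙ_const_mul (f 0) (fun t => g t - g 0) b c2 (by simp),
      cfcₙ_mul (fun t => f t - f 0) (fun t => g t - g 0) b c1 (by simp) c2 (by simp)]
  unfold Phi
  rw [h1, mul_add, add_mul, add_mul, mul_smul_comm (g 0) (cfcₙ (fun t => f t - f 0) b),
    (unit_cfc hE hE1 hE2 _).2, smul_mul_assoc (f 0) F (cfcₙ _ b), (unit_cfc hF hF1 hF2 _).1,
    smul_mul_smul_comm]
  abel

omit [PartialOrder D] [StarOrderedRing D] in
theorem Phi_add {b E : D} {f g : ℝ → ℝ} (hf : Continuous f) (hg : Continuous g) :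
    Phi b E f + Phi b E g = Phi b E (fun t => f t + g t) := by
  have c1 : ContinuousOn (fun t => f t - f 0) (quasispectrum ℝ b) := by fun_prop
  have c2 : ContinuousOn (fun t => g t - g 0) (quasispectrum ℝ b) := by fun_prop
  have e : (fun t => f t + g t - (f 0 + g 0)) = fun t => (f t - f 0) + (g t - g 0) := by
    funext t; ring
  unfold Phi
  rw [e, cfcₙ_add (fun t => f t - f 0) (fun t => g t - g 0) b c1 (by simp) c2 (by simp), add_smul]
  abel

omit [PartialOrder D] [StarOrderedRing D] in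
theorem Phi_smul {b E : D} {f : ℝ → ℝ} (hf : Continuous f) (r : ℝ) :
    r • Phi b E f = Phi b E (fun t => r * f t) := by
  have c1 : ContinuousOn (fun t => f t - f 0) (quasispectrum ℝ b) := by fun_prop
  have e : (fun t => r * f t - r * f 0) = fun t => r * (f t - f 0) := by
    funext t; ring
  unfold Phi
  rw [e, cfcₙ_const_mul r (fun t => f t - f 0) b c1 (by simp), smul_add, smul_smul]

omit [PartialOrder D] [StarOrderedRing D] in
theorem Phi_const (b E : D) (c : ℝ) : Phi b E (fun _ => c) = c • E := by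
  unfold Phi
  simp only [sub_self, cfcₙ_const_zero, add_zero]

omit [PartialOrder D] [StarOrderedRing D] in
theorem Phi_id {b : D} (hb : IsSelfAdjoint b) (E : D) : Phi b E (fun t => t) = b := by
  unfold Phi
  simp only [sub_zero, zero_smul, zero_add]
  exact cfcₙ_id' ℝ b

omit [PartialOrder D] [StarOrderedRing D] in
theorem Phi_congr {b E : D} {f g : ℝ → ℝ} (h0 : f 0 = g 0)
    (h : ∀ t ∈ quasispectrum ℝ b, f t = g t) : Phi b E f = Phi b E g := by
  unfold Phi
  rw [h0, cfcₙ_congr (f := fun t => f t - g 0) (g := fun t => g t - g 0)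
    (fun t ht => by simp only [h t ht])]

theorem norm_Phi_le {b E : D} (hE : IsSelfAdjoint E) (hE1 : E * b = b) (hE2 : b * E = b)
    (hEn : ‖E‖ ≤ 1) {f : ℝ → ℝ} (hf : Continuous f) {M : ℝ} (hM : 0 ≤ M)
    (h : ∀ t, |f t| ≤ M) : ‖Phi b E f‖ ≤ M := by
  set k : ℝ → ℝ := fun t => Real.sqrt (M ^ 2 - f t ^ 2) with hk
  have hkc : Continuous k := by fun_prop
  have hkk : ∀ t, k t * k t = M ^ 2 - f t ^ 2 := fun t => Real.mul_self_sqrt (by
    have := sq_le_sq' (by linarith [abs_le.1 (h t)]) (abs_le.1 (h t)).2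
    linarith)
  have h1 : Phi b E k * Phi b E k + Phi b E f * Phi b E f = (M ^ 2) • (E * E) := by
    rw [Phi_mul hE hE hE1 hE2 hE1 hE2 hkc hkc, Phi_mul hE hE hE1 hE2 hE1 hE2 hf hf,
      Phi_add (by fun_prop) (by fun_prop), ← Phi_const b (E * E) (M ^ 2)]
    congr 1
    funext t
    rw [hkk]; ring
  have h2 : 0 ≤ Phi b E k * Phi b E k := by
    have := star_mul_self_nonneg (Phi b E k)
    rwa [(Phi_sa hE k).star_eq] at this
  have h3 : 0 ≤ Phi b E f * Phi b E f := by
    have := star_mul_self_nonneg (Phi b E f)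
    rwa [(Phi_sa hE f).star_eq] at this
  have h4 : Phi b E f * Phi b E f ≤ (M ^ 2) • (E * E) := by
    rw [← h1]
    exact le_add_of_nonneg_left h2
  have h5 := CStarAlgebra.norm_le_norm_of_nonneg_of_le h3 h4
  have h6 : ‖Phi b E f * Phi b E f‖ = ‖Phi b E f‖ * ‖Phi b E f‖ := by
    have := CStarRing.norm_star_mul_self (x := Phi b E f)
    rwa [(Phi_sa hE f).star_eq] at this
  rw [h6, norm_smul, Real.norm_of_nonneg (by positivity)] at h5
  have h7 : ‖E * E‖ ≤ 1 := (norm_mul_le _ _).trans (mul_le_one₀ hEn (norm_nonneg _) hEn)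
  have h8 : ‖Phi b E f‖ * ‖Phi b E f‖ ≤ M * M := by nlinarith [sq_nonneg M]
  exact le_of_not_gt fun hc => by nlinarith [norm_nonneg (Phi b E f)]

end Vale.Agent.P133.R2.H82
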