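import Vale.Agent.P133.R2.H82.Phi

/-!
P133 (helper82): an exact partition of unity of the spectrum.
-/

open scoped ComplexOrder

namespace Vale.Agent.P133.R2.H82

universe u

variable {D : Type u} [NonUnitalCStarAlgebra D] [PartialOrder D] [StarOrderedRing D]

/-- the ramps -/
noncomputable def rmp (al η : ℝ) (j : ℕ) (t : ℝ) : ℝ := min (max ((t - al) / η - j) 0) 1

/-- the tents -/
noncomputable def tent (al η : ℝ) (j : ℕ) (t : ℝ) : ℝ := rmp al η j t - rmp al η (j + 1) t

theorem rmp_cont {al η : ℝ} (j : ℕ) : Continuous (rmp al η j) := by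
  unfold rmp; fun_prop

theorem tent_cont {al η : ℝ} (j : ℕ) : Continuous (tent al η j) :=
  (rmp_cont j).sub (rmp_cont (j + 1))

theorem tent_nonneg {al η : ℝ} (j : ℕ) (t : ℝ) : 0 ≤ tent al η j t := by
  unfold tent rmp
  rw [sub_nonneg]
  refine min_le_min (max_le_max ?_ le_rfl) le_rfl
  push_cast; linarith

theorem tent_le_one {al η : ℝ} (j : ℕ) (t : ℝ) : tent al η j t ≤ 1 := by
  unfold tent rmp
  have h1 : min (max ((t - al) / η - (j : ℝ)) 0) 1 ≤ 1 := min_le_right _ _
  have h2 : 0 ≤ min (max ((t - al) / η - ((j + 1 : ℕ) : ℝ)) 0) 1 :=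
    le_min (le_max_right _ _) zero_le_one
  linarith

theorem tent_supp {al η : ℝ} (hη : 0 < η) (j : ℕ) (t : ℝ) (h : tent al η j t ≠ 0) :
    |t - (al + (j + 1) * η)| ≤ η := by
  by_contra hc
  apply h
  unfold tent rmp
  push Not at hc
  rcases lt_abs.1 hc with h1 | h1
  · have h2 : (j : ℝ) + 2 ≤ (t - al) / η := by
      rw [le_div_iff₀ hη]; nlinarith
    rw [min_eq_right (le_max_of_le_left (by linarith)),
      min_eq_right (le_max_of_le_left (by push_cast; linarith)), sub_self]
  · have h2 : (t - al) / η ≤ (j : ℝ) := by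
      rw [div_le_iff₀ hη]; nlinarith
    rw [max_eq_right (by linarith), max_eq_right (by push_cast; linarith), sub_self]

theorem sum_tent {al η : ℝ} (n : ℕ) (t : ℝ) :
    ∑ j ∈ Finset.range n, tent al η j t = rmp al η 0 t - rmp al η n t := by
  have := Finset.sum_range_sub' (fun j => rmp al η j t) n
  simpa only [tent] using this

theorem sum_tent_one {η R t : ℝ} (hη : 0 < η) {n : ℕ} (hn : 2 * R + η ≤ n * η) (ht : |t| ≤ R) :
    ∑ j ∈ Finset.range n, tent (-R - η) η j t = 1 := by
  obtain ⟨h1, h2⟩ := abs_le.1 ht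
  rw [sum_tent]
  unfold rmp
  have h3 : 1 ≤ (t - (-R - η)) / η := by rw [le_div_iff₀ hη]; linarith
  have h4 : (t - (-R - η)) / η ≤ n := by rw [div_le_iff₀ hη]; linarith
  rw [max_eq_right (by linarith : (t - (-R - η)) / η - (n : ℝ) ≤ 0),
    min_eq_right (le_max_of_le_left (by push_cast; linarith)), min_eq_left zero_le_one, sub_zero]

/-- a bump function around `s`, one on the interval of radius `η`, zero off that of radius
`2 η` -/
noncomputable def bump (s η : ℝ) (t : ℝ) : ℝ := min (max (2 - |t - s| / η) 0) 1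

theorem bump_cont {s η : ℝ} : Continuous (bump s η) := by
  unfold bump; fun_prop

theorem bump_abs {s η t : ℝ} : |bump s η t| ≤ 1 := by
  unfold bump
  rw [abs_le]
  exact ⟨(by norm_num : (-1 : ℝ) ≤ 0).trans (le_min (le_max_right _ _) zero_le_one),
    min_le_right _ _⟩

theorem bump_one {s η t : ℝ} (hη : 0 < η) (h : |t - s| ≤ η) : bump s η t = 1 := by
  unfold bump
  have h1 : |t - s| / η ≤ 1 := by rw [div_le_iff₀ hη]; linarith
  exact min_eq_right (le_max_of_le_left (by linarith))

theorem bump_zero {s η t : ℝ} (hη : 0 < η) (h : 2 * η < |t - s|) : bump s η t = 0 := by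
  unfold bump
  have h1 : 2 ≤ |t - s| / η := by rw [le_div_iff₀ hη]; linarith
  rw [max_eq_right (by linarith), min_eq_left zero_le_one]

theorem bump_mul {s η t : ℝ} (hη : 0 < η) :
    |bump s η t * (t * bump s η t) - s * (bump s η t * bump s η t)| ≤ 2 * η := by
  have e : bump s η t * (t * bump s η t) - s * (bump s η t * bump s η t) =
      bump s η t * bump s η t * (t - s) := by ring
  rw [e, abs_mul, abs_mul]
  by_cases h : |t - s| ≤ 2 * η
  · have h1 := bump_abs (s := s) (η := η) (t := t)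
    calc |bump s η t| * |bump s η t| * |t - s| ≤ 1 * 1 * |t - s| := by gcongr
      _ ≤ 2 * η := by linarith
  · rw [bump_zero hη (not_le.1 h)]
    simp only [abs_zero, zero_mul]
    positivity

omit [PartialOrder D] [StarOrderedRing D] in
theorem Phi_indep {b E F : D} {f : ℝ → ℝ} (h : f 0 = 0) : Phi b E f = Phi b F f := by
  unfold Phi
  rw [h, zero_smul, zero_smul]

omit [PartialOrder D] [StarOrderedRing D] in
theorem Phi_sum {b E : D} {f : ℕ → ℝ → ℝ} (hf : ∀ j, Continuous (f j)) (n : ℕ) :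
    ∑ j ∈ Finset.range n, Phi b E (f j) = Phi b E (fun t => ∑ j ∈ Finset.range n, f j t) := by
  induction n with
  | zero =>
    simp only [Finset.range_zero, Finset.sum_empty]
    rw [Phi_const, zero_smul]
  | succ n ih =>
    rw [Finset.sum_range_succ, ih, Phi_add (by fun_prop) (hf n)]
    congr 1
    funext t
    rw [Finset.sum_range_succ]

/-- the pieces -/
theorem exists_pieces {b E0 E1 : D} (hb : IsSelfAdjoint b) (h0 : IsSelfAdjoint E0)
    (h1 : IsSelfAdjoint E1) (n0 : ‖E0‖ ≤ 1) (n1 : ‖E1‖ ≤ 1) (h10 : E1 * E0 = E0)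
    (hb0 : E0 * b = b) (hb0' : b * E0 = b) {η : ℝ} (hη : 0 < η) :
    ∃ (m : ℕ) (x c : Fin m → D) (s : Fin m → ℝ), (∀ i, IsSelfAdjoint (x i)) ∧
      (∀ i, IsSelfAdjoint (c i)) ∧ (∀ i, x i * c i = c i) ∧ (∀ i, ‖x i‖ ≤ 1) ∧
      (∀ i, ‖c i‖ ≤ 1) ∧ (∀ i, ‖x i * (b * x i) - s i • (x i * x i)‖ ≤ 2 * η) ∧
      ∑ i, c i * c i = E0 * E0 ∧
      ∀ E2 : D, IsSelfAdjoint E2 → E2 * E1 = E1 → ∀ i, E2 * x i = x i := by
  have hb1 : E1 * b = b := by
    calc E1 * b = E1 * (E0 * b) := by rw [hb0]
      _ = b := by rw [← mul_assoc, h10, hb0]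
  have hb1' : b * E1 = b := by
    have := congrArg star hb1
    rwa [star_mul, h1.star_eq, hb.star_eq] at this
  set R : ℝ := ‖b‖ with hR
  obtain ⟨n, hn⟩ := exists_nat_ge ((2 * R + η) / η)
  rw [div_le_iff₀ hη] at hn
  set al : ℝ := -R - η with hal
  set s : Fin n → ℝ := fun i => al + ((i : ℕ) + 1) * η with hs
  set x : Fin n → D := fun i => Phi b E1 (bump (s i) η) with hx
  set c : Fin n → D := fun i => Phi b E0 (fun t => Real.sqrt (tent al η i t)) with hc
  have hcc : ∀ i : Fin n, Continuous fun t => Real.sqrt (tent al η i t) := fun i =>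
    (tent_cont _).sqrt
  refine ⟨n, x, c, s, fun i => Phi_sa h1 _, fun i => Phi_sa h0 _, fun i => ?_, fun i => ?_,
    fun i => ?_, fun i => ?_, ?_, fun E2 h2 h21 i => ?_⟩
  · simp only [hx, hc]
    rw [Phi_mul h0 h1 hb0 hb0' hb1 hb1' bump_cont (hcc i), h10]
    congr 1
    funext t
    by_cases ht : tent al η i t = 0
    · rw [ht, Real.sqrt_zero, mul_zero]
    · rw [bump_one hη (tent_supp hη _ t ht), one_mul]
  · exact norm_Phi_le h1 hb1 hb1' n1 bump_cont zero_le_one fun t => bump_abs
  · refine norm_Phi_le h0 hb0 hb0' n0 (hcc i) zero_le_one fun t => ?_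
    rw [abs_of_nonneg (Real.sqrt_nonneg _), Real.sqrt_le_one]
    exact tent_le_one _ _
  · have hbc : Continuous (bump (s i) η) := bump_cont
    have hEE : IsSelfAdjoint (E1 * E1) := by
      rw [isSelfAdjoint_iff, star_mul, h1.star_eq]
    have hEb : (E1 * E1) * b = b := by rw [mul_assoc, hb1, hb1]
    have hEb' : b * (E1 * E1) = b := by rw [← mul_assoc, hb1', hb1']
    have hEn : ‖E1 * E1‖ ≤ 1 := (norm_mul_le _ _).trans (mul_le_one₀ n1 (norm_nonneg _) n1)
    have e1 : b * Phi b E1 (bump (s i) η) = Phi b (E1 * E1) (fun t => t * bump (s i) η t) := by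
      have h := Phi_mul h1 h1 hb1 hb1' hb1 hb1' continuous_id' hbc
      rw [Phi_id hb E1] at h
      exact h
    simp only [hx]
    rw [e1, Phi_mul hEE h1 hEb hEb' hb1 hb1' hbc (by fun_prop),
      Phi_mul h1 h1 hb1 hb1' hb1 hb1' hbc hbc,
      Phi_indep (E := E1 * (E1 * E1)) (F := E1 * E1) (by simp),
      sub_eq_add_neg, ← neg_smul, Phi_smul (by fun_prop), Phi_add (by fun_prop) (by fun_prop)]
    refine norm_Phi_le hEE hEb hEb' hEn (by fun_prop) (by positivity) fun t => ?_
    have := bump_mul (s := s i) (t := t) hη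
    have e2 : bump (s i) η t * (t * bump (s i) η t) + -s i * (bump (s i) η t * bump (s i) η t) =
        bump (s i) η t * (t * bump (s i) η t) - s i * (bump (s i) η t * bump (s i) η t) := by
      ring
    rw [e2]
    exact this
  · have e1 : ∀ i, c i * c i = Phi b (E0 * E0) (fun t => tent al η i t) := by
      intro i
      simp only [hc]
      rw [Phi_mul h0 h0 hb0 hb0' hb0 hb0' (hcc i) (hcc i)]
      congr 1
      funext t
      exact Real.mul_self_sqrt (tent_nonneg _ _)
    simp only [e1]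
    rw [← Finset.sum_range (fun j => Phi b (E0 * E0) (fun t => tent al η j t)),
      Phi_sum (fun j => tent_cont j), Phi_congr (g := fun _ => 1) ?_ ?_, Phi_const, one_smul]
    · exact sum_tent_one hη hn (by rw [abs_zero]; exact norm_nonneg b)
    · intro t ht
      refine sum_tent_one hη hn ?_
      have := norm_apply_le_norm_cfcₙ (fun x : ℝ => x) b ht
      rwa [cfcₙ_id' ℝ b] at this
  · simp only [hx]
    unfold Phi
    have hb2 : E2 * b = b := by
      calc E2 * b = E2 * (E1 * b) := by rw [hb1]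
        _ = b := by rw [← mul_assoc, h21, hb1]
    have hb2' : b * E2 = b := by
      have := congrArg star hb2
      rwa [star_mul, h2.star_eq, hb.star_eq] at this
    rw [mul_add, mul_smul_comm, h21, (unit_cfc h2 hb2 hb2' _).1]

end Vale.Agent.P133.R2.H82
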