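import Vale.Agent.P133.R2.H82.Pieces

/-!
P133 (helper82): functions of the positive element `a`.
-/

open scoped ComplexOrder

namespace Vale.Agent.P133.R2.H82

open Vale.Agent.P133.R2.H307 Vale.Agent.P133.R2.H28

universe u

variable {D : Type u} [NonUnitalCStarAlgebra D] [PartialOrder D] [StarOrderedRing D]

/-- clamped linear function, zero up to `k σ` and one from `(k+1) σ` on -/
noncomputable def cl (σ k t : ℝ) : ℝ := min (max (t / σ - k) 0) 1

theorem cl_cont {σ k : ℝ} : Continuous (cl σ k) := by unfold cl; fun_prop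

theorem cl_zero {σ k : ℝ} (hk : 0 ≤ k) : cl σ k 0 = 0 := by
  unfold cl
  rw [zero_div, max_eq_right (by linarith), min_eq_left zero_le_one]

theorem cl_nonneg {σ k t : ℝ} : 0 ≤ cl σ k t := le_min (le_max_right _ _) zero_le_one

theorem cl_le_one {σ k t : ℝ} : cl σ k t ≤ 1 := min_le_right _ _

theorem cl_one {σ k t : ℝ} (hσ : 0 < σ) (h : (k + 1) * σ ≤ t) : cl σ k t = 1 := by
  unfold cl
  have h1 : k + 1 ≤ t / σ := by rwa [le_div_iff₀ hσ]
  exact min_eq_right (le_max_of_le_left (by linarith))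

theorem cl_eq_zero {σ k t : ℝ} (hσ : 0 < σ) (h : t ≤ k * σ) : cl σ k t = 0 := by
  unfold cl
  have h1 : t / σ ≤ k := by rwa [div_le_iff₀ hσ]
  rw [max_eq_right (by linarith), min_eq_left zero_le_one]

/-- if `g` vanishes up to `(k + 1) σ` then `cl σ k` is a unit for `g` -/
theorem cl_mul {σ k : ℝ} (hσ : 0 < σ) {g : ℝ → ℝ} (hg : ∀ t, t ≤ (k + 1) * σ → g t = 0)
    (t : ℝ) : cl σ k t * g t = g t := by
  by_cases h : t ≤ (k + 1) * σ
  · rw [hg t h, mul_zero]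
  · rw [cl_one hσ (not_le.1 h).le, one_mul]

omit [PartialOrder D] [StarOrderedRing D] in
theorem norm_cl_le {a : D} {σ k : ℝ} : ‖cfcₙ (cl σ k) a‖ ≤ 1 :=
  norm_cfcₙ_le fun t _ => by
    rw [Real.norm_of_nonneg cl_nonneg]; exact cl_le_one

theorem exists_units {a : D} (ha : 0 ≤ a) {δ σ : ℝ} (hδ : 0 < δ) (hσ : 0 < σ)
    (h : 4 * σ ≤ δ / 2) : ∃ E2 E1 E0 T G v : D, IsSelfAdjoint E2 ∧ IsSelfAdjoint E1 ∧
      IsSelfAdjoint E0 ∧ IsSelfAdjoint T ∧ IsSelfAdjoint G ∧ IsSelfAdjoint v ∧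
      E2 * E1 = E1 ∧ E1 * E0 = E0 ∧ E0 * G = G ∧ E0 * v = v ∧ v * v = ramp δ a ∧
      a * T = E2 ∧ ‖E1‖ ≤ 1 ∧ ‖E0‖ ≤ 1 ∧ ‖v‖ ≤ 1 ∧ ‖G - a‖ ≤ 4 * σ ∧ ‖G‖ ≤ ‖a‖ := by
  have hsa : IsSelfAdjoint a := IsSelfAdjoint.of_nonneg ha
  set rp : ℝ → ℝ := fun s => min (max (2 * s / δ - 1) 0) 1 with hrp
  have hrpc : Continuous rp := by fun_prop
  have hrp0 : ∀ t, 0 ≤ rp t := fun t => le_min (le_max_right _ _) zero_le_one
  have hrpz : ∀ t, t ≤ 4 * σ → rp t = 0 := by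
    intro t ht
    simp only [hrp]
    have : 2 * t / δ ≤ 1 := by rw [div_le_iff₀ hδ]; linarith
    rw [max_eq_right (by linarith), min_eq_left zero_le_one]
  set T0 : ℝ → ℝ := fun t => cl σ 1 t / max t σ with hT0
  have hT0c : Continuous T0 := by
    simp only [hT0]
    exact cl_cont.div (by fun_prop) fun t => (lt_of_lt_of_le hσ (le_max_right _ _)).ne'
  have hT00 : T0 0 = 0 := by simp only [hT0, cl_zero zero_le_one, zero_div]
  set G0 : ℝ → ℝ := fun t => max (t - 4 * σ) 0 with hG0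
  have hG0c : Continuous G0 := by fun_prop
  have hG00 : G0 0 = 0 := by
    simp only [hG0]; exact max_eq_right (by linarith)
  have hG0z : ∀ t, t ≤ 4 * σ → G0 t = 0 := fun t ht => max_eq_right (by linarith)
  have hsq : Continuous fun t => Real.sqrt (rp t) := hrpc.sqrt
  have hsq0 : Real.sqrt (rp 0) = 0 := by rw [hrpz 0 (by linarith), Real.sqrt_zero]
  have hq : ∀ t ∈ quasispectrum ℝ a, 0 ≤ t := fun t ht => quasispectrum_nonneg_of_nonneg a ha t ht
  have hmul : ∀ (f g : ℝ → ℝ), Continuous f → f 0 = 0 → Continuous g → g 0 = 0 →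
      (∀ t, f t * g t = g t) → cfcₙ f a * cfcₙ g a = cfcₙ g a := by
    intro f g hf hf0 hg hg0 hfg
    rw [← cfcₙ_mul f g a hf.continuousOn hf0 hg.continuousOn hg0]
    congr 1
    funext t
    exact hfg t
  refine ⟨cfcₙ (cl σ 1) a, cfcₙ (cl σ 2) a, cfcₙ (cl σ 3) a, cfcₙ T0 a, cfcₙ G0 a,
    cfcₙ (fun t => Real.sqrt (rp t)) a, cfcₙ_predicate _ _, cfcₙ_predicate _ _,
    cfcₙ_predicate _ _, cfcₙ_predicate _ _, cfcₙ_predicate _ _, cfcₙ_predicate _ _,
    ?_, ?_, ?_, ?_, ?_, ?_, norm_cl_le, norm_cl_le, ?_, ?_, ?_⟩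
  · exact hmul _ _ cl_cont (cl_zero (by norm_num)) cl_cont (cl_zero (by norm_num))
      (cl_mul hσ fun t ht => cl_eq_zero hσ (by linarith))
  · exact hmul _ _ cl_cont (cl_zero (by norm_num)) cl_cont (cl_zero (by norm_num))
      (cl_mul hσ fun t ht => cl_eq_zero hσ (by linarith))
  · exact hmul _ _ cl_cont (cl_zero (by norm_num)) hG0c hG00
      (cl_mul hσ fun t ht => hG0z t (by linarith))
  · refine hmul _ _ cl_cont (cl_zero (by norm_num)) hsq hsq0
      (cl_mul hσ fun t ht => ?_)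
    show Real.sqrt (rp t) = 0
    rw [hrpz t (by linarith), Real.sqrt_zero]
  · rw [← cfcₙ_mul _ _ a hsq.continuousOn hsq0 hsq.continuousOn hsq0]
    unfold ramp
    congr 1
    funext t
    exact Real.mul_self_sqrt (hrp0 t)
  · have e : a * cfcₙ T0 a = cfcₙ (fun x : ℝ => x) a * cfcₙ T0 a := by rw [cfcₙ_id' ℝ a]
    rw [e, ← cfcₙ_mul (fun x => x) T0 a continuousOn_id rfl hT0c.continuousOn hT00]
    congr 1
    funext t
    simp only [hT0]
    rcases le_total t σ with ht | ht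
    · rw [cl_eq_zero hσ (by linarith), zero_div, mul_zero]
    · rw [max_eq_left ht, mul_div_cancel₀ _ (lt_of_lt_of_le hσ ht).ne']
  · refine norm_cfcₙ_le fun t _ => ?_
    rw [Real.norm_of_nonneg (Real.sqrt_nonneg _), Real.sqrt_le_one]
    exact min_le_right _ _
  · have e : cfcₙ G0 a - a = cfcₙ (fun t => G0 t - t) a := by
      rw [cfcₙ_sub G0 (fun t => t) a hG0c.continuousOn hG00 continuousOn_id rfl, cfcₙ_id' ℝ a]
    rw [e]
    refine norm_cfcₙ_le fun t ht => ?_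
    have h1 := hq t ht
    simp only [hG0, Real.norm_eq_abs]
    rw [abs_le]
    constructor
    · have := le_max_left (t - 4 * σ) 0
      linarith
    · rcases max_cases (t - 4 * σ) 0 with ⟨h2, _⟩ | ⟨h2, _⟩ <;> rw [h2] <;> linarith
  · refine norm_cfcₙ_le fun t ht => ?_
    have h1 := hq t ht
    have h2 : ‖t‖ ≤ ‖a‖ := by
      have := norm_apply_le_norm_cfcₙ (fun x : ℝ => x) a ht
      rwa [cfcₙ_id' ℝ a] at this
    rw [Real.norm_of_nonneg h1] at h2
    rw [Real.norm_of_nonneg (le_max_right _ _)]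
    exact max_le (by linarith) (norm_nonneg a)

/-- elements of `herS a` -/
theorem mem_herS {a E T y : D} (ha : 0 ≤ a) (hE : IsSelfAdjoint E) (hT : IsSelfAdjoint T)
    (hy : IsSelfAdjoint y) (h : a * T = E) (h1 : E * y = y) : y ∈ herS a := by
  have hsa : IsSelfAdjoint a := IsSelfAdjoint.of_nonneg ha
  have h2 : y * E = y := by
    have := congrArg star h1
    rwa [star_mul, hE.star_eq, hy.star_eq] at this
  have h3 : T * a = E := by
    have := congrArg star h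
    rwa [star_mul, hE.star_eq, hT.star_eq, hsa.star_eq] at this
  refine ⟨Submodule.le_topologicalClosure _ ⟨T * y * T, ?_⟩, hy⟩
  show a * ((T * y * T) * a) = y
  calc a * ((T * y * T) * a) = (a * T) * y * (T * a) := by simp only [mul_assoc]
    _ = y := by rw [h, h3, h1, h2]

theorem exists_cut {a : D} (ha : 0 ≤ a) {δ : ℝ} (hδ : 0 < δ) {d : D} (hd : d ∈ herS a)
    {ρ : ℝ} (hρ : 0 < ρ) : ∃ E2 E1 E0 T v b : D, IsSelfAdjoint E2 ∧ IsSelfAdjoint E1 ∧
      IsSelfAdjoint E0 ∧ IsSelfAdjoint T ∧ IsSelfAdjoint v ∧ IsSelfAdjoint b ∧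
      E2 * E1 = E1 ∧ E1 * E0 = E0 ∧ E0 * b = b ∧ b * E0 = b ∧ E0 * v = v ∧ v * v = ramp δ a ∧
      a * T = E2 ∧ ‖E1‖ ≤ 1 ∧ ‖E0‖ ≤ 1 ∧ ‖v‖ ≤ 1 ∧ ‖b - d‖ ≤ ρ := by
  have hsa : IsSelfAdjoint a := IsSelfAdjoint.of_nonneg ha
  obtain ⟨hd1, hd2⟩ := hd
  have hd2' : star d = d := hd2
  obtain ⟨y, ⟨w, rfl⟩, hw⟩ := Metric.mem_closure_iff.1 hd1 (ρ / 2) (half_pos hρ)
  have hw' : ‖a * (w * a) - d‖ < ρ / 2 := by
    rw [dist_comm, dist_eq_norm] at hw
    exact hw
  set w0 : D := (1 / 2 : ℝ) • (w + star w) with hw0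
  have hw0s : IsSelfAdjoint w0 := by
    rw [isSelfAdjoint_iff, hw0, star_smul, star_trivial, star_add, star_star, add_comm]
  have hn1 : ‖a * (w0 * a) - d‖ ≤ ρ / 2 := by
    have e : a * (w0 * a) - d = (1 / 2 : ℝ) • ((a * (w * a) - d) + star (a * (w * a) - d)) := by
      rw [star_sub, star_mul, star_mul, hd2', hsa.star_eq, hw0, smul_mul_assoc, mul_smul_comm,
        add_mul, mul_add, mul_assoc a (star w) a]
      have : d = (1 / 2 : ℝ) • (d + d) := by rw [← two_smul ℝ d, smul_smul]; norm_num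
      conv_lhs => rw [this]
      rw [← smul_sub]
      congr 1
      abel
    rw [e, norm_smul]
    have := norm_add_le (a * (w * a) - d) (star (a * (w * a) - d))
    rw [norm_star] at this
    rw [Real.norm_of_nonneg (by norm_num)]
    linarith
  set N : ℝ := ‖w0‖ * ‖a‖ + 1 with hN
  have hN0 : 0 < N := by positivity
  set σ : ℝ := min (δ / 8) (ρ / (16 * N)) with hσ
  have hσ0 : 0 < σ := lt_min (by positivity) (by positivity)
  have hσ1 : σ ≤ δ / 8 := min_le_left _ _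
  have hσ2 : σ ≤ ρ / (16 * N) := min_le_right _ _
  obtain ⟨E2, E1, E0, T, G, v, h2, h1, h0, hT, hG, hv, h21, h10, hGE, hvE, hvv, haT, n1, n0,
    nv, hGa, hGn⟩ := exists_units ha hδ hσ0 (by linarith)
  have hbs : IsSelfAdjoint (G * (w0 * G)) := by
    rw [isSelfAdjoint_iff, star_mul, star_mul, hG.star_eq, hw0s.star_eq, mul_assoc]
  have hb1 : E0 * (G * (w0 * G)) = G * (w0 * G) := by rw [← mul_assoc, hGE]
  refine ⟨E2, E1, E0, T, v, G * (w0 * G), h2, h1, h0, hT, hv, hbs, h21, h10, hb1, ?_, hvE, hvv,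
    haT, n1, n0, nv, ?_⟩
  · have := congrArg star hb1
    rwa [star_mul, h0.star_eq, hbs.star_eq] at this
  · have e : G * (w0 * G) - d = (G - a) * (w0 * G) + a * (w0 * (G - a)) +
        (a * (w0 * a) - d) := by noncomm_ring
    rw [e]
    have q1 : ‖(G - a) * (w0 * G)‖ ≤ 4 * σ * (‖w0‖ * ‖a‖) := by
      refine (norm_mul_le _ _).trans ?_
      gcongr
      exact (norm_mul_le _ _).trans (by gcongr)
    have q2 : ‖a * (w0 * (G - a))‖ ≤ 4 * σ * (‖w0‖ * ‖a‖) := by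
      calc _ ≤ ‖a‖ * (‖w0‖ * ‖G - a‖) :=
            (norm_mul_le _ _).trans (by gcongr; exact norm_mul_le _ _)
        _ ≤ ‖a‖ * (‖w0‖ * (4 * σ)) := by gcongr
        _ = _ := by ring
    have q3 : 4 * σ * (‖w0‖ * ‖a‖) ≤ ρ / 4 := by
      calc 4 * σ * (‖w0‖ * ‖a‖) ≤ 4 * (ρ / (16 * N)) * N := by
            gcongr
            linarith
        _ = ρ / 4 := by field_simp; norm_num
    calc _ ≤ ‖(G - a) * (w0 * G)‖ + ‖a * (w0 * (G - a))‖ + ‖a * (w0 * a) - d‖ :=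
          (norm_add_le _ _).trans (by gcongr; exact norm_add_le _ _)
      _ ≤ ρ := by linarith

end Vale.Agent.P133.R2.H82
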